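import Vale.Agent.P021.Fine.Tail

/-!
# P021: numerical certificate for the sum of the gaps (`T = 1857`)
-/

open Filter Topology

namespace Vale.Agent.P021.Fine

def certf (a : ℕ) : ℕ :=
  let g := (5570 * a + 3713) / 3714
  let k := 5 * a + 1 + a % 2 - 2 * g
  let x := 10000000000000000 * (3714 * g - 5570 * a) / (1857 * a * g)
  let y := 10000000000000000 * (3714 * k - 7430 * a) / (1857 * a * k)
  bif Nat.ble a 37139 then (bif Nat.ble x y then x else y) else 0

def certd (r : ℕ) : ℕ :=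
  let g := (5570 * r + 3713) / 3714
  let u := 3714 * g - 5570 * r
  let w := 3714 * (1 + r % 2) - 2 * u
  let x := 1000000000000 * u / 5570
  let y := 1000000000000 * w / 7430
  bif Nat.ble x y then x else y

def certu (r d : ℕ) : ℕ :=
  10000000000000000 * (4 * d * (3 * (2 * r + 70567) ^ 2 - 3714 ^ 2)) /
      (3 * 3714 * (2 * r + 70567) ^ 3 * 1000000000000)

def certt (r : ℕ) : ℕ := bif Nat.ble r 3713 then certu r (certd r) else 0

def certs (f : ℕ → ℕ) : ℕ → ℕ → ℕ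
  | 0, s => f s
  | d + 1, s => certs f d s + certs f d (s + 2 ^ d)

theorem certs_eq (f : ℕ → ℕ) (d s : ℕ) : certs f d s = ∑ i ∈ Finset.range (2 ^ d), f (s + i) := by
  induction d generalizing s with
  | zero => simp [certs]
  | succ d ih =>
    rw [certs, ih, ih, pow_succ, mul_two, Finset.sum_range_add]
    simp only [add_assoc]

set_option maxRecDepth 100000 in
theorem cert_num : Nat.ble 6475852305800000 (certs certf 16 1 + certs certt 12 0) = true := by
  decide +kernel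

theorem bif_le_min (x y : ℕ) : (bif Nat.ble x y then x else y) = min x y := by
  rcases h : Nat.ble x y with _ | _
  · have : ¬ (x ≤ y) := fun h' => Bool.noConfusion (h.symm.trans (Nat.ble_eq.mpr h'))
    rw [cond_false, min_eq_right (not_le.mp this).le]
  · rw [cond_true, min_eq_left (Nat.ble_eq.mp h)]

theorem div_cast_le (D u v m : ℕ) (hv : v ≤ u) :
    ((D * (u - v) / m : ℕ) : ℝ) ≤ D * (((u : ℝ) - v) / m) := by
  calc ((D * (u - v) / m : ℕ) : ℝ) ≤ ((D * (u - v) : ℕ) : ℝ) / m := Nat.cast_div_le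
    _ = D * (((u : ℝ) - v) / m) := by
      push_cast [Nat.cast_sub hv]
      ring

theorem gam_eq (a : ℕ) : (5570 * a + 3713) / 3714 = gam 1857 a := by
  unfold gam
  norm_num

theorem certf_le (a : ℕ) (ha : 1 ≤ a) :
    (certf a : ℝ) ≤ 10000000000000000 * (if a ≤ 37139 then max 0 (gap 1857 a) else 0) := by
  have hk : 5 * a + 1 + a % 2 - 2 * gam 1857 a = kap 1857 a := rfl
  by_cases hA : a ≤ 37139
  swap
  · have : Nat.ble a 37139 = false := by
      rcases h : Nat.ble a 37139 with _ | _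
      · rfl
      · exact absurd (Nat.ble_eq.mp h) hA
    unfold certf
    simp only [this, cond_false, if_neg hA]
    simp
  rw [if_pos hA]
  unfold certf
  simp only [Nat.ble_eq.mpr hA, cond_true, gam_eq, hk, bif_le_min]
  have hg1 : 1 ≤ gam 1857 a := gam_pos 1857 a (by norm_num) ha
  have hk1 : 1 ≤ kap 1857 a := (kap_pos 1857 a (by norm_num) ha).1
  have ha' : (0 : ℝ) < a := by exact_mod_cast ha
  have hg' : (0 : ℝ) < gam 1857 a := by exact_mod_cast hg1
  have hk' : (0 : ℝ) < kap 1857 a := by exact_mod_cast hk1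
  rcases le_total (5570 * a) (3714 * gam 1857 a) with h1 | h1
  · rcases le_total (7430 * a) (3714 * kap 1857 a) with h2 | h2
    · have e1 := div_cast_le 10000000000000000 _ _ (1857 * a * gam 1857 a) h1
      have e2 := div_cast_le 10000000000000000 _ _ (1857 * a * kap 1857 a) h2
      rw [Nat.cast_min]
      have e3 : min (((3714 * gam 1857 a : ℕ) - (5570 * a : ℕ) : ℝ) / (1857 * a * gam 1857 a : ℕ))
          (((3714 * kap 1857 a : ℕ) - (7430 * a : ℕ) : ℝ) / (1857 * a * kap 1857 a : ℕ)) ≤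
          gap 1857 a := by
        have l1 : ((3714 * gam 1857 a : ℕ) - (5570 * a : ℕ) : ℝ) / (1857 * a * gam 1857 a : ℕ) =
            2 / a - ((3 * 1857 - 1 : ℕ) : ℝ) / (1857 * gam 1857 a : ℕ) := by
          push_cast
          field_simp
          ring
        have l2 : ((3714 * kap 1857 a : ℕ) - (7430 * a : ℕ) : ℝ) / (1857 * a * kap 1857 a : ℕ) =
            2 / a - ((4 * 1857 + 2 : ℕ) : ℝ) / (1857 * kap 1857 a : ℕ) := by
          push_cast
          norm_num
          field_simp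
          ring
        rw [l1, l2]
        unfold gap lo
        rcases max_choice (((3 * 1857 - 1 : ℕ) : ℝ) / (1857 * gam 1857 a : ℕ))
          (((4 * 1857 + 2 : ℕ) : ℝ) / (1857 * kap 1857 a : ℕ)) with h | h
        · rw [h]; exact min_le_left _ _
        · rw [h]; exact min_le_right _ _
      calc min (((10000000000000000 * (3714 * gam 1857 a - 5570 * a) / (1857 * a * gam 1857 a) : ℕ)) : ℝ)
            ((10000000000000000 * (3714 * kap 1857 a - 7430 * a) / (1857 * a * kap 1857 a) : ℕ) : ℝ)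
          ≤ min ((10000000000000000 : ℕ) * (((3714 * gam 1857 a : ℕ) - (5570 * a : ℕ) : ℝ) / (1857 * a * gam 1857 a : ℕ)))
            ((10000000000000000 : ℕ) * (((3714 * kap 1857 a : ℕ) - (7430 * a : ℕ) : ℝ) / (1857 * a * kap 1857 a : ℕ))) :=
            min_le_min e1 e2
        _ = (10000000000000000 : ℕ) * min (((3714 * gam 1857 a : ℕ) - (5570 * a : ℕ) : ℝ) / (1857 * a * gam 1857 a : ℕ))
            (((3714 * kap 1857 a : ℕ) - (7430 * a : ℕ) : ℝ) / (1857 * a * kap 1857 a : ℕ)) :=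
            (mul_min_of_nonneg _ _ (by positivity)).symm
        _ ≤ 10000000000000000 * max 0 (gap 1857 a) := by
            push_cast at e3 ⊢
            gcongr
            exact e3.trans (le_max_right _ _)
    · rw [Nat.sub_eq_zero_of_le h2]
      simp
  · rw [Nat.sub_eq_zero_of_le h1]
    simp

theorem cl1 (r d g u : ℕ) (h1 : 5570 * r + u = 3714 * g) (h2 : d * 5570 ≤ 1000000000000 * u) :
    (5570 : ℝ) * (r + (d : ℝ) / 1000000000000) ≤ 3714 * g := by
  have a1 : (5570 : ℝ) * r + u = 3714 * g := by exact_mod_cast h1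
  have a2 : (d : ℝ) * 5570 ≤ 1000000000000 * u := by exact_mod_cast h2
  have a3 : (d : ℝ) / 1000000000000 * 5570 ≤ u := by
    rw [div_mul_eq_mul_div, div_le_iff₀ (by norm_num)]
    linarith
  linarith

theorem cl2 (r d k u e : ℕ) (h1 : 3714 * k + 2 * u = 7430 * r + 3714 * (1 + e))
    (hw : 2 * u ≤ 3714 * (1 + e)) (h2 : d * 7430 ≤ 1000000000000 * (3714 * (1 + e) - 2 * u)) :
    (7430 : ℝ) * (r + (d : ℝ) / 1000000000000) ≤ 3714 * k := by
  have a1 : (3714 : ℝ) * k + 2 * u = 7430 * r + 3714 * (1 + e) := by exact_mod_cast h1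
  have a2 : (d : ℝ) * 7430 ≤ 1000000000000 * (3714 * (1 + e) - 2 * u) := by
    have h3 : ((d * 7430 : ℕ) : ℝ) ≤ ((1000000000000 * (3714 * (1 + e) - 2 * u) : ℕ) : ℝ) := by
      exact_mod_cast h2
    rw [Nat.cast_mul, Nat.cast_mul, Nat.cast_sub hw] at h3
    push_cast at h3
    exact h3
  have a3 : (d : ℝ) / 1000000000000 * 7430 ≤ 3714 * (1 + e) - 2 * u := by
    rw [div_mul_eq_mul_div, div_le_iff₀ (by norm_num)]
    linarith
  linarith

theorem cl3 (r m : ℝ) (hr : 0 ≤ r) (hm : 0 ≤ m) :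
    BB 3714 (r + 3714 * (10 + m) + 1 / 2 - 1857) ≤ 1 / (3714 * (m + 1)) := by
  refine (BB_le _ _ (by norm_num) (by nlinarith)).trans ?_
  apply one_div_le_one_div_of_le (by positivity)
  nlinarith

theorem cl4_aux (X D1 D2 d m : ℕ) (hsub : X ≤ 3 * m ^ 2) :
    ((D1 * (4 * d * (3 * m ^ 2 - X)) / (3 * 3714 * m ^ 3 * D2) : ℕ) : ℝ) ≤
      D1 * (4 * d * (3 * (m : ℝ) ^ 2 - X)) / (3 * 3714 * (m : ℝ) ^ 3 * D2) := by
  refine Nat.cast_div_le.trans (le_of_eq ?_)
  rw [Nat.cast_mul, Nat.cast_mul, Nat.cast_sub hsub]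
  push_cast
  ring

theorem cl4 (r d : ℕ) : (certu r d : ℝ) ≤
      10000000000000000 * (2 * ((d : ℝ) / 1000000000000) * BB 3714 (r + 3714 * 10 + 1 / 2 - 1857)) := by
  unfold certu
  have hsub : 3714 ^ 2 ≤ 3 * (2 * r + 70567) ^ 2 := by
    have : 70567 ≤ 2 * r + 70567 := by omega
    have h2 : 70567 ^ 2 ≤ (2 * r + 70567) ^ 2 := Nat.pow_le_pow_left this 2
    omega
  refine (cl4_aux (3714 ^ 2) 10000000000000000 1000000000000 d (2 * r + 70567) hsub).trans
    (le_of_eq ?_)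
  unfold BB
  have hz : (0 : ℝ) < 2 * r + 70567 := by positivity
  have e2 : (r : ℝ) + 3714 * 10 + 1 / 2 - 1857 = (2 * r + 70567) / 2 := by ring
  rw [e2]
  have e3 : (((2 * r + 70567 : ℕ)) : ℝ) = 2 * r + 70567 := by push_cast; ring
  rw [e3]
  generalize (2 * (r : ℝ) + 70567) = z at *
  push_cast
  field_simp
  ring

theorem cl5 (r m g k : ℕ) (d : ℝ) (hr : r < 3714) (hg : g = gam 1857 r) (hk0 : k = kap 1857 r)
    (hd0 : 0 ≤ d) (hd1 : d ≤ 1) (hk : 2 * g ≤ 5 * r + 1 + r % 2)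
    (h1 : 5570 * (r + d) ≤ 3714 * (g : ℝ))
    (h2 : 7430 * (r + d) ≤ 3714 * (k : ℝ)) :
    2 * d * (BB 3714 (r + 3714 * 10 + 1 / 2 - 1857) - BB 3714 (r + 3714 * (10 + m) + 1 / 2 - 1857)) ≤
      ∑ j ∈ Finset.range m, max 0 (gap 1857 (r + 2 * 1857 * (10 + j))) := by
  subst hg hk0
  have h := class_sum 1857 r 10 m d (by norm_num) (by omega) (by norm_num) hd0 hd1 hk
    (by push_cast; linarith) (by push_cast; linarith)
  refine le_trans (le_of_eq ?_) h
  push_cast
  norm_num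

theorem certd_eq (r : ℕ) : certd r = min (1000000000000 * (3714 * gam 1857 r - 5570 * r) / 5570)
      (1000000000000 * (3714 * (1 + r % 2) - 2 * (3714 * gam 1857 r - 5570 * r)) / 7430) := by
  unfold certd
  simp only [gam_eq, bif_le_min]

theorem certt_eq (r : ℕ) (hr : r < 3714) : certt r = certu r (certd r) := by
  have hrb : Nat.ble r 3713 = true := Nat.ble_eq.mpr (by omega)
  unfold certt
  rw [hrb, cond_true]

theorem cl6 (r g k d : ℕ) (hk : k = 5 * r + 1 + r % 2 - 2 * g) (hd0 : 0 < d)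
    (hs : 5570 * r ≤ 3714 * g ∧ 3714 * g ≤ 5570 * r + 3713)
    (hd : d = min (1000000000000 * (3714 * g - 5570 * r) / 5570)
      (1000000000000 * (3714 * (1 + r % 2) - 2 * (3714 * g - 5570 * r)) / 7430)) :
    d ≤ 1000000000000 ∧ 2 * g ≤ 5 * r + 1 + r % 2 ∧ ∃ u, 5570 * r + u = 3714 * g ∧
      d * 5570 ≤ 1000000000000 * u ∧ 3714 * k + 2 * u = 7430 * r + 3714 * (1 + r % 2) ∧
      2 * u ≤ 3714 * (1 + r % 2) ∧ d * 7430 ≤ 1000000000000 * (3714 * (1 + r % 2) - 2 * u) := by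
  obtain ⟨u, hu⟩ : ∃ u, u = 3714 * g - 5570 * r := ⟨_, rfl⟩
  rw [← hu] at hd
  have hu1 : 5570 * r + u = 3714 * g := by omega
  have hd1 : d * 5570 ≤ 1000000000000 * u := by
    have : d ≤ 1000000000000 * u / 5570 := by rw [hd]; exact min_le_left _ _
    calc d * 5570 ≤ (1000000000000 * u / 5570) * 5570 := Nat.mul_le_mul_right _ this
      _ ≤ _ := Nat.div_mul_le_self _ _
  have hd2 : d * 7430 ≤ 1000000000000 * (3714 * (1 + r % 2) - 2 * u) := by
    have : d ≤ 1000000000000 * (3714 * (1 + r % 2) - 2 * u) / 7430 := by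
      rw [hd]; exact min_le_right _ _
    calc d * 7430 ≤ (1000000000000 * (3714 * (1 + r % 2) - 2 * u) / 7430) * 7430 :=
          Nat.mul_le_mul_right _ this
      _ ≤ _ := Nat.div_mul_le_self _ _
  clear hd
  have hw : 2 * u ≤ 3714 * (1 + r % 2) := by omega
  have hk : 2 * g ≤ 5 * r + 1 + r % 2 := by omega
  refine ⟨by omega, hk, u, hu1, hd1, by omega, hw, hd2⟩

/-- the tail estimate for one class -/
theorem certt_le (r m : ℕ) (hr : r < 3714) :
    (certt r : ℝ) ≤ 10000000000000000 * ((∑ j ∈ Finset.range m, max 0 (gap 1857 (r + 2 * 1857 * (10 + j))))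
      + 2 / (3714 * (m + 1))) := by
  have hsum : 0 ≤ ∑ j ∈ Finset.range m, max 0 (gap 1857 (r + 2 * 1857 * (10 + j))) :=
    Finset.sum_nonneg fun _ _ => le_max_left _ _
  have hm0 : (0 : ℝ) ≤ m := Nat.cast_nonneg m
  have hr0 : (0 : ℝ) ≤ r := Nat.cast_nonneg r
  have hS : ∀ g k d : ℕ, g = gam 1857 r → k = kap 1857 r → 0 < d →
      d = min (1000000000000 * (3714 * g - 5570 * r) / 5570)
      (1000000000000 * (3714 * (1 + r % 2) - 2 * (3714 * g - 5570 * r)) / 7430) →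
      2 * ((d : ℝ) / 1000000000000) * (BB 3714 (r + 3714 * 10 + 1 / 2 - 1857) -
        BB 3714 (r + 3714 * (10 + m) + 1 / 2 - 1857)) ≤
      ∑ j ∈ Finset.range m, max 0 (gap 1857 (r + 2 * 1857 * (10 + j))) := by
    intro g k d hg hk hd0 hd
    have hs : 5570 * r ≤ 3714 * g ∧ 3714 * g ≤ 5570 * r + 3713 := by
      have := gam_spec 1857 r (by norm_num)
      rw [← hg] at this
      omega
    have hk' : k = 5 * r + 1 + r % 2 - 2 * g := by rw [hk, hg]; rfl
    obtain ⟨b1, b2, u, b3, b4, b5, b6, b7⟩ := cl6 r g k d hk' hd0 hs hd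
    have hδ1 : (d : ℝ) / 1000000000000 ≤ 1 := by
      rw [div_le_one (by norm_num)]
      exact_mod_cast b1
    exact cl5 r m g k _ hr hg hk (by positivity) hδ1 b2 (cl1 r d g u b3 b4)
      (cl2 r d k u (r % 2) b5 b6 b7)
  generalize hSS : ∑ j ∈ Finset.range m, max 0 (gap 1857 (r + 2 * 1857 * (10 + j))) = SS at *
  have h6 : 0 ≤ 2 / (3714 * ((m : ℝ) + 1)) := by positivity
  rw [certt_eq r hr]
  have hdd := certd_eq r
  generalize certd r = d at *
  rcases Nat.eq_zero_or_pos d with h0 | h0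
  · subst h0
    have h9 : certu r 0 = 0 := by
      unfold certu
      rw [mul_zero, zero_mul, mul_zero, Nat.zero_div]
    rw [h9]
    push_cast
    linarith
  have hmain := hS _ _ d rfl rfl h0 hdd
  have hδ1 : (d : ℝ) / 1000000000000 ≤ 1 := by
    rw [div_le_one (by norm_num)]
    have hs : 5570 * r ≤ 3714 * gam 1857 r ∧ 3714 * gam 1857 r ≤ 5570 * r + 3713 := by
      have := gam_spec 1857 r (by norm_num)
      omega
    exact_mod_cast (cl6 r (gam 1857 r) _ d rfl h0 hs hdd).1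
  have hB := cl3 r m hr0 hm0
  have hval := cl4 r d
  have hδ0 : 0 ≤ (d : ℝ) / 1000000000000 := by positivity
  generalize (d : ℝ) / 1000000000000 = δ at *
  generalize BB 3714 (r + 3714 * 10 + 1 / 2 - 1857) = B1 at *
  generalize BB 3714 (r + 3714 * (10 + m) + 1 / 2 - 1857) = B2 at *
  refine hval.trans ?_
  have h5 : 2 * δ * B2 ≤ 2 / (3714 * ((m : ℝ) + 1)) := by
    calc 2 * δ * B2 ≤ 2 * δ * (1 / (3714 * ((m : ℝ) + 1))) := mul_le_mul_of_nonneg_left hB (by positivity)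
      _ ≤ 2 * 1 * (1 / (3714 * ((m : ℝ) + 1))) := by gcongr
      _ = 2 / (3714 * ((m : ℝ) + 1)) := by ring
  rw [mul_sub] at hmain
  have h7 : 2 * δ * B1 ≤ SS + 2 / (3714 * ((m : ℝ) + 1)) := by linarith
  exact mul_le_mul_of_nonneg_left h7 (by norm_num)

theorem split_sum_aux (f : ℕ → ℝ) (h c m : ℕ) : ∑ a ∈ Finset.range (h * (c + m)), f a =
    ∑ a ∈ Finset.range (h * c), f a +
      ∑ j ∈ Finset.range m, ∑ r ∈ Finset.range h, f (r + h * (c + j)) := by
  induction m with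
  | zero => simp
  | succ m ih =>
    have e : h * (c + (m + 1)) = h * (c + m) + h := by ring
    rw [e, Finset.sum_range_add, ih, Finset.sum_range_succ, add_assoc]
    congr 2
    apply Finset.sum_congr rfl
    intro r _
    rw [add_comm]

theorem split_sum (f : ℕ → ℝ) (m : ℕ) : ∑ a ∈ Finset.range (3714 * (10 + m)), f a =
    ∑ a ∈ Finset.range 37140, f a +
      ∑ j ∈ Finset.range m, ∑ r ∈ Finset.range 3714, f (r + 2 * 1857 * (10 + j)) := by
  have h := split_sum_aux f (2 * 1857) 10 m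
  have e1 : 2 * 1857 = 3714 := by norm_num
  have e2 : 3714 * 10 = 37140 := by norm_num
  rw [e1, e2] at h
  rw [e1]
  exact h

theorem fin_part (N M : ℕ) (h : M ≤ N) (f : ℕ → ℕ) (g : ℕ → ℝ) (D : ℝ)
    (hfg : ∀ a, 1 ≤ a → (f a : ℝ) ≤ D * (if a ≤ M then g a else 0)) :
    ∑ i ∈ Finset.range N, (f (1 + i) : ℝ) ≤ D * ∑ a ∈ Finset.Icc 1 M, g a := by
  have e1 : ∑ i ∈ Finset.range N, (f (1 + i) : ℝ) = ∑ a ∈ Finset.Ico 1 (N + 1), (f a : ℝ) := by
    rw [Finset.sum_Ico_eq_sum_range, Nat.add_sub_cancel]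
  have e2 : ∑ a ∈ Finset.Ico 1 (N + 1), (f a : ℝ) ≤ ∑ a ∈ Finset.Ico 1 (N + 1),
      D * (if a ≤ M then g a else 0) :=
    Finset.sum_le_sum fun a ha => hfg a (Finset.mem_Ico.mp ha).1
  rw [e1]
  refine e2.trans (le_of_eq ?_)
  rw [← Finset.mul_sum, ← Finset.sum_filter]
  congr 1
  apply Finset.sum_congr _ fun _ _ => rfl
  ext a
  simp only [Finset.mem_filter, Finset.mem_Ico, Finset.mem_Icc]
  omega

theorem tail_part (N K : ℕ) (h : K ≤ N) (f : ℕ → ℕ) (g : ℕ → ℝ) (D : ℝ)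
    (hfg : ∀ a, a < K → (f a : ℝ) ≤ D * g a) (hf0 : ∀ a, K ≤ a → f a = 0) :
    ∑ i ∈ Finset.range N, (f (0 + i) : ℝ) ≤ D * ∑ r ∈ Finset.range K, g r := by
  obtain ⟨L, rfl⟩ := Nat.exists_eq_add_of_le h
  rw [Finset.sum_range_add, Finset.mul_sum]
  have z : ∑ x ∈ Finset.range L, (f (0 + (K + x)) : ℝ) = 0 := by
    apply Finset.sum_eq_zero
    intro x _
    rw [hf0 _ (by omega)]
    simp
  rw [z, add_zero]
  apply Finset.sum_le_sum
  intro r hr
  rw [zero_add]
  exact hfg r (Finset.mem_range.mp hr)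

section
attribute [local irreducible] certf certd gap

theorem certt_zero (r : ℕ) (hr : 3714 ≤ r) : certt r = 0 := by
  have hb : Nat.ble r 3713 = false := by
    rcases h : Nat.ble r 3713 with _ | _
    · rfl
    · have := Nat.ble_eq.mp h
      omega
  unfold certt
  simp only [hb, cond_false]

theorem range_icc (f : ℕ → ℝ) (n : ℕ) : ∑ a ∈ Finset.range (n + 1), f a =
    f 0 + ∑ a ∈ Finset.Icc 1 n, f a := by
  rw [Finset.sum_range_succ', add_comm]
  congr 1
  rw [show Finset.Icc 1 n = Finset.Ico 1 (n + 1) from rfl, Finset.sum_Ico_eq_sum_range,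
    Nat.add_sub_cancel]
  apply Finset.sum_congr rfl
  intro x _
  rw [add_comm]

attribute [local irreducible] certt

theorem cert_real_aux (N M m : ℕ) (g1 : 37139 ≤ N) (g2 : 3714 ≤ M)
    (h1 : 6475852305800000 ≤ ∑ i ∈ Finset.range N, certf (1 + i) +
      ∑ i ∈ Finset.range M, certt (0 + i)) :
    (0.64758523058 : ℝ) ≤ (∑ a ∈ Finset.Icc 1 37139, max 0 (gap 1857 a)) +
    ∑ r ∈ Finset.range 3714, ((∑ j ∈ Finset.range m,
        max 0 (gap 1857 (r + 2 * 1857 * (10 + j)))) + 2 / (3714 * (m + 1))) := by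
  have h2 := fin_part N 37139 g1 certf _ _ certf_le
  have h3 := tail_part M 3714 g2 certt _ _ (fun r hr => certt_le r m hr) certt_zero
  have h1' : (6475852305800000 : ℝ) ≤ ∑ i ∈ Finset.range N, (certf (1 + i) : ℝ) +
      ∑ i ∈ Finset.range M, (certt (0 + i) : ℝ) := by
    have := (Nat.cast_le (α := ℝ)).mpr h1
    rw [Nat.cast_add, Nat.cast_sum, Nat.cast_sum] at this
    exact this
  generalize ∑ i ∈ Finset.range N, (certf (1 + i) : ℝ) = S1 at h1' h2
  generalize ∑ i ∈ Finset.range M, (certt (0 + i) : ℝ) = S2 at h1' h3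
  generalize ∑ a ∈ Finset.Icc 1 37139, max 0 (gap 1857 a) = S3 at h2 ⊢
  generalize ∑ r ∈ Finset.range 3714, ((∑ j ∈ Finset.range m,
        max 0 (gap 1857 (r + 2 * 1857 * (10 + j)))) + 2 / (3714 * (m + 1))) = S4 at h3 ⊢
  clear h1
  norm_num at h1' h2 h3 ⊢
  linarith

attribute [local irreducible] certs

theorem cert_real (m : ℕ) : (0.64758523058 : ℝ) ≤ (∑ a ∈ Finset.Icc 1 37139, max 0 (gap 1857 a)) +
    ∑ r ∈ Finset.range 3714, ((∑ j ∈ Finset.range m,
        max 0 (gap 1857 (r + 2 * 1857 * (10 + j)))) + 2 / (3714 * (m + 1))) := by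
  refine cert_real_aux (2 ^ 16) (2 ^ 12) m (by norm_num) (by norm_num) ?_
  rw [← certs_eq, ← certs_eq]
  exact Nat.ble_eq.mp cert_num

theorem gap_sum (ε : ℝ) (hε : 0 < ε) : ∃ A : ℕ,
    0.64758523058 - ε ≤ ∑ a ∈ Finset.Icc 1 A, max 0 (gap 1857 a) := by
  obtain ⟨m, hm⟩ := exists_nat_gt (2 / ε)
  have hm0 : (0 : ℝ) < m + 1 := by positivity
  refine ⟨3714 * (10 + m) - 1, ?_⟩
  have h1 := cert_real m
  rw [Finset.sum_add_distrib, Finset.sum_comm, Finset.sum_const, Finset.card_range,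
    nsmul_eq_mul] at h1
  have h4 := split_sum (fun a => max 0 (gap 1857 a)) m
  have h5 := range_icc (fun a => max 0 (gap 1857 a)) (3714 * (10 + m) - 1)
  have h6 := range_icc (fun a => max 0 (gap 1857 a)) 37139
  rw [show 3714 * (10 + m) - 1 + 1 = 3714 * (10 + m) by omega] at h5
  have h7 : ((3714 : ℕ) : ℝ) * (2 / (3714 * ((m : ℝ) + 1))) < ε := by
    have e : ((3714 : ℕ) : ℝ) * (2 / (3714 * ((m : ℝ) + 1))) = 2 / (m + 1) := by
      push_cast
      field_simp
    rw [e, div_lt_iff₀ hm0]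
    rw [div_lt_iff₀ hε] at hm
    nlinarith
  rw [h5] at h4
  rw [show (37140 : ℕ) = 37139 + 1 from rfl, h6] at h4
  linarith

end

end Vale.Agent.P021.Fine
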