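import Mathlib

/-!
# P021: two numerical inequalities between large integers, `T = 1857`
-/

namespace Vale.Agent.P021.Fine

/-- comparison of two large integers -/
def chkS (A B C KA KB KC D G a1 a2 a3 e f g : ℕ) : Bool :=
  Nat.ble (A ^ a1 * B ^ a2 * KC ^ a3 * f ^ e * g) (C ^ a3 * KA ^ a1 * KB ^ a2 * D ^ e * G)

/-- comparison of two large integers -/
def chkB (X Y Z W D G a1 a2 e f g : ℕ) : Bool :=
  Nat.ble (X ^ a1 * W ^ a2 * D ^ e * G) (Z ^ a1 * Y ^ a2 * f ^ e * g)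

theorem num_small_nat : chkS (7537154017787568229636) (42454236500496670028043811772179728951793281)
    (290279332576446892057409) (10 ^ 24) (256 * 10 ^ 44) (4 * 10 ^ 24) (10 ^ 14) (10 ^ 12) 1857 3714 5570 18242
    271828182845905 1386943101806 = true := by
  decide +kernel

theorem num_big_nat : chkB 81599260909088 46095 4156543539424 111556 (10 ^ 14) (10 ^ 12) 3714 5570 15979
    271828182845904 2649063610431 = true := by
  decide +kernel

theorem num_small_real (A B C KA KB KC D G : ℕ) (a1 a2 a3 e f g : ℕ)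
    (h : chkS A B C KA KB KC D G a1 a2 a3 e f g = true) (hKA : 0 < KA) (hKB : 0 < KB)
    (hKC : 0 < KC) (hD : 0 < D) (hG : 0 < G) (E : ℝ) (hE : 0 < E)
    (hE1 : 1 / E ≤ ((f : ℝ) / D) ^ e * ((g : ℝ) / G)) :
    ((A : ℝ) / KA) ^ a1 * ((B : ℝ) / KB) ^ a2 ≤ ((C : ℝ) / KC) ^ a3 * E := by
  have h1 : (A : ℝ) ^ a1 * B ^ a2 * KC ^ a3 * f ^ e * g ≤
      (C : ℝ) ^ a3 * KA ^ a1 * KB ^ a2 * D ^ e * G := by
    unfold chkS at h
    have := Nat.le_of_ble_eq_true h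
    exact_mod_cast this
  have hKA' : (0 : ℝ) < KA := by exact_mod_cast hKA
  have hKB' : (0 : ℝ) < KB := by exact_mod_cast hKB
  have hKC' : (0 : ℝ) < KC := by exact_mod_cast hKC
  have hD' : (0 : ℝ) < D := by exact_mod_cast hD
  have hG' : (0 : ℝ) < G := by exact_mod_cast hG
  rw [div_pow, div_pow, div_pow, div_mul_div_comm, div_mul_eq_mul_div, div_le_div_iff₀
    (by positivity) (by positivity)]
  have h2 : (A : ℝ) ^ a1 * B ^ a2 * KC ^ a3 * (1 / E) ≤ (C : ℝ) ^ a3 * (KA ^ a1 * KB ^ a2) := by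
    have h3 : (A : ℝ) ^ a1 * B ^ a2 * KC ^ a3 * (1 / E) ≤
        (A : ℝ) ^ a1 * B ^ a2 * KC ^ a3 * (((f : ℝ) / D) ^ e * ((g : ℝ) / G)) :=
      mul_le_mul_of_nonneg_left hE1 (by positivity)
    refine h3.trans ?_
    have h4 : (A : ℝ) ^ a1 * B ^ a2 * KC ^ a3 * (((f : ℝ) / D) ^ e * ((g : ℝ) / G)) =
        ((A : ℝ) ^ a1 * B ^ a2 * KC ^ a3 * f ^ e * g) / (D ^ e * G) := by
      rw [div_pow]; field_simp
    rw [h4, div_le_iff₀ (by positivity)]
    calc _ ≤ (C : ℝ) ^ a3 * KA ^ a1 * KB ^ a2 * D ^ e * G := h1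
      _ = _ := by ring
  have h5 := mul_le_mul_of_nonneg_right h2 hE.le
  have h6 : (A : ℝ) ^ a1 * B ^ a2 * KC ^ a3 * (1 / E) * E = (A : ℝ) ^ a1 * B ^ a2 * KC ^ a3 := by
    rw [mul_assoc _ (1 / E) E, one_div_mul_cancel hE.ne', mul_one]
  rw [h6] at h5
  calc (A : ℝ) ^ a1 * B ^ a2 * KC ^ a3 ≤ _ := h5
    _ = _ := by ring

theorem num_big_real (X Y Z W D G : ℕ) (a1 a2 e f g : ℕ)
    (h : chkB X Y Z W D G a1 a2 e f g = true)
    (hZ : 0 < Z) (hW : 0 < W)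
    (hD : 0 < D) (hG : 0 < G) (E : ℝ) (hE1 : ((f : ℝ) / D) ^ e * ((g : ℝ) / G) ≤ E) :
    ((X : ℝ) / Z) ^ a1 ≤ ((Y : ℝ) / W) ^ a2 * E := by
  have h1 : (X : ℝ) ^ a1 * W ^ a2 * D ^ e * G ≤ (Z : ℝ) ^ a1 * Y ^ a2 * f ^ e * g := by
    unfold chkB at h
    have := Nat.le_of_ble_eq_true h
    exact_mod_cast this
  have hZ' : (0 : ℝ) < Z := by exact_mod_cast hZ
  have hW' : (0 : ℝ) < W := by exact_mod_cast hW
  have hD' : (0 : ℝ) < D := by exact_mod_cast hD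
  have hG' : (0 : ℝ) < G := by exact_mod_cast hG
  have h2 : ((X : ℝ) / Z) ^ a1 ≤ ((Y : ℝ) / W) ^ a2 * (((f : ℝ) / D) ^ e * ((g : ℝ) / G)) := by
    rw [div_pow, div_pow, div_pow, div_mul_div_comm, div_mul_div_comm, div_le_div_iff₀
      (by positivity) (by positivity)]
    calc _ = (X : ℝ) ^ a1 * W ^ a2 * D ^ e * G := by ring
      _ ≤ _ := h1
      _ = _ := by ring
  refine h2.trans (mul_le_mul_of_nonneg_left hE1 (by positivity))

theorem exp_one_le : Real.exp 1 ≤ 271828182845905 / 10 ^ 14 := by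
  have h := Real.exp_bound' (x := 1) (by norm_num) (by norm_num) (n := 18) (by norm_num)
  refine h.trans ?_
  simp only [Finset.sum_range_succ, Finset.sum_range_zero, Nat.factorial]
  norm_num

theorem le_exp_one : 271828182845904 / 10 ^ 14 ≤ Real.exp 1 := by
  have h := Real.sum_le_exp_of_nonneg (x := 1) (by norm_num) 18
  refine le_trans ?_ h
  simp only [Finset.sum_range_succ, Finset.sum_range_zero, Nat.factorial]
  norm_num

theorem exp_frac_small : Real.exp (327102118 / 1000000000) ≤ 1386943101806 / 10 ^ 12 := by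
  have h := Real.exp_bound' (x := 327102118 / 1000000000) (by norm_num) (by norm_num) (n := 14) (by norm_num)
  refine h.trans ?_
  simp only [Finset.sum_range_succ, Finset.sum_range_zero, Nat.factorial]
  norm_num

theorem exp_frac_big : 2649063610431 / 10 ^ 12 ≤ Real.exp (974206223 / 1000000000) := by
  have h := Real.sum_le_exp_of_nonneg (x := 974206223 / 1000000000) (by norm_num) 18
  refine le_trans ?_ h
  simp only [Finset.sum_range_succ, Finset.sum_range_zero, Nat.factorial]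
  norm_num

theorem exp_split (n : ℕ) (x : ℝ) : Real.exp (n + x) = Real.exp 1 ^ n * Real.exp x := by
  rw [Real.exp_add, ← Real.exp_nat_mul, mul_one]

theorem exp_small_bound : 1 / Real.exp (-(18242.327102118)) ≤
    (((271828182845905 : ℕ) : ℝ) / ((10 ^ 14 : ℕ) : ℝ)) ^ 18242 * (((1386943101806 : ℕ) : ℝ) / ((10 ^ 12 : ℕ) : ℝ)) := by
  rw [one_div, ← Real.exp_neg, neg_neg]
  have e : (18242.327102118 : ℝ) = ((18242 : ℕ) : ℝ) + 327102118 / 1000000000 := by norm_num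
  rw [e, exp_split]
  have h1 : Real.exp 1 ≤ ((271828182845905 : ℕ) : ℝ) / ((10 ^ 14 : ℕ) : ℝ) := by
    exact exp_one_le.trans (le_of_eq (by norm_num))
  have h2 : Real.exp (327102118 / 1000000000) ≤ ((1386943101806 : ℕ) : ℝ) / ((10 ^ 12 : ℕ) : ℝ) := by
    exact exp_frac_small.trans (le_of_eq (by norm_num))
  have h3 : (0 : ℝ) ≤ Real.exp 1 ^ 18242 := pow_nonneg (Real.exp_pos 1).le _
  have h4 : Real.exp 1 ^ 18242 ≤ (((271828182845905 : ℕ) : ℝ) / ((10 ^ 14 : ℕ) : ℝ)) ^ 18242 :=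
    pow_le_pow_left₀ (Real.exp_pos 1).le h1 _
  exact mul_le_mul h4 h2 (Real.exp_pos _).le (h3.trans h4)

theorem exp_big_bound : (((271828182845904 : ℕ) : ℝ) / ((10 ^ 14 : ℕ) : ℝ)) ^ 15979 *
    (((2649063610431 : ℕ) : ℝ) / ((10 ^ 12 : ℕ) : ℝ)) ≤ Real.exp 15979.974206223 := by
  have e : (15979.974206223 : ℝ) = ((15979 : ℕ) : ℝ) + 974206223 / 1000000000 := by norm_num
  rw [e, exp_split]
  have h1 : ((271828182845904 : ℕ) : ℝ) / ((10 ^ 14 : ℕ) : ℝ) ≤ Real.exp 1 := by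
    exact (le_of_eq (by norm_num)).trans le_exp_one
  have h2 : ((2649063610431 : ℕ) : ℝ) / ((10 ^ 12 : ℕ) : ℝ) ≤ Real.exp (974206223 / 1000000000) := by
    exact (le_of_eq (by norm_num)).trans exp_frac_big
  have h0 : (0 : ℝ) ≤ ((271828182845904 : ℕ) : ℝ) / ((10 ^ 14 : ℕ) : ℝ) :=
    div_nonneg (Nat.cast_nonneg _) (Nat.cast_nonneg _)
  have h4 : (((271828182845904 : ℕ) : ℝ) / ((10 ^ 14 : ℕ) : ℝ)) ^ 15979 ≤ Real.exp 1 ^ 15979 :=
    pow_le_pow_left₀ h0 h1 _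
  have h5 : (0 : ℝ) ≤ ((2649063610431 : ℕ) : ℝ) / ((10 ^ 12 : ℕ) : ℝ) :=
    div_nonneg (Nat.cast_nonneg _) (Nat.cast_nonneg _)
  exact mul_le_mul h4 h2 h5 (pow_nonneg (Real.exp_pos 1).le _)

end Vale.Agent.P021.Fine
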