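import Vale.Agent.P021.Sup2
import Vale.Agent.P021.Fine.Sup
import Vale.Agent.P021.Fine.Num

/-!
# P021: sup bounds on the contours (complex form), `T = 1857`
-/

open Complex

namespace Vale.Agent.P021.Fine

theorem combine {a b c a0 b0 c0 E : ℝ} (ha : 0 < a) (hb : 0 < b) (hc : 0 < c) (ha0 : 0 < a0)
    (hb0 : 0 < b0) (hc0 : 0 < c0) (hE : 0 < E)
    (h : 1857 * Real.log a + 3714 * Real.log b - 5570 * Real.log c ≤
      1857 * Real.log a0 + 3714 * Real.log b0 - 5570 * Real.log c0)
    (h0 : a0 ^ 1857 * b0 ^ 3714 ≤ c0 ^ 5570 * E) : a ^ 1857 * b ^ 3714 ≤ c ^ 5570 * E := by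
  have h1 : Real.log (a0 ^ 1857 * b0 ^ 3714) ≤ Real.log (c0 ^ 5570 * E) :=
    Real.log_le_log (by positivity) h0
  rw [Real.log_mul (by positivity) (by positivity), Real.log_mul (by positivity) (by positivity),
    Real.log_pow, Real.log_pow, Real.log_pow] at h1
  push_cast at h1
  rw [← Real.log_le_log_iff (by positivity) (by positivity),
    Real.log_mul (by positivity) (by positivity), Real.log_mul (by positivity) (by positivity),
    Real.log_pow, Real.log_pow, Real.log_pow]
  push_cast
  linarith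

/-! ### numerical value at the saddle -/

noncomputable def ka : ℝ := ((7537154017787568229636 : ℕ) : ℝ) / ((10 ^ 24 : ℕ) : ℝ)
noncomputable def kb : ℝ :=
  ((42454236500496670028043811772179728951793281 : ℕ) : ℝ) / ((256 * 10 ^ 44 : ℕ) : ℝ)
noncomputable def kc : ℝ := ((290279332576446892057409 : ℕ) : ℝ) / ((4 * 10 ^ 24 : ℕ) : ℝ)

theorem ka_pos : 0 < ka := by unfold ka; norm_num
theorem kb_pos : 0 < kb := by unfold kb; norm_num
theorem kc_pos : 0 < kc := by unfold kc; norm_num

theorem saddle_num : ka ^ 1857 * kb ^ 3714 ≤ kc ^ 5570 * Real.exp (-(18242.327102118)) :=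
  num_small_real (7537154017787568229636) (42454236500496670028043811772179728951793281)
    (290279332576446892057409) (10 ^ 24) (256 * 10 ^ 44) (4 * 10 ^ 24) (10 ^ 14) (10 ^ 12) 1857 3714 5570 18242
    271828182845905 1386943101806 num_small_nat (by norm_num) (by norm_num) (by norm_num) (by norm_num)
    (by norm_num) (Real.exp (-(18242.327102118))) (Real.exp_pos _) exp_small_bound

/-! ### segment 1 -/

theorem seg1_na (θ : ℝ) : na ⟨1 / 2 + θ * (70805 / 2000000), θ * (286013 / 2000000)⟩ =
    ka * (θ ^ 2) ^ 2 := by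
  rw [na_eq]; unfold ka; push_cast; ring

theorem seg1_nb (θ : ℝ) : nb ⟨1 / 2 + θ * (70805 / 2000000), θ * (286013 / 2000000)⟩ =
    Qb (θ ^ 2) / (256 * 10 ^ 44) := by
  rw [nb_eq]; unfold Qb rr ii qd; ring

theorem seg1_nc (θ : ℝ) : nc ⟨1 / 2 + θ * (70805 / 2000000), θ * (286013 / 2000000)⟩ =
    Qc (θ ^ 2) / (4 * 10 ^ 24) := by
  rw [nc_eq]; unfold Qc qd; ring

theorem kb_eq : kb = Qb 1 / (256 * 10 ^ 44) := by unfold kb Qb rr ii qd; norm_num
theorem kc_eq : kc = Qc 1 / (4 * 10 ^ 24) := by unfold kc Qc qd; norm_num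

theorem seg1_bound {θ : ℝ} (h0 : 0 ≤ θ) (h1 : θ ≤ 1) (w : ℂ)
    (hw : w = ⟨1 / 2 + θ * (70805 / 2000000), θ * (286013 / 2000000)⟩) :
    na w ^ 1857 * nb w ^ 3714 ≤ nc w ^ 5570 * Real.exp (-(18242.327102118)) := by
  rcases eq_or_lt_of_le h0 with h | h
  · have e : na w = 0 := by rw [hw, seg1_na, ← h]; ring
    rw [e, zero_pow (by norm_num), zero_mul]
    have : 0 ≤ nc w := normSq_nonneg _
    positivity
  · have hu0 : 0 < θ ^ 2 := by positivity
    have hu1 : θ ^ 2 ≤ 1 := pow_le_one₀ h0 h1
    have hm := seg1_mono hu0 hu1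
    have hQb := Qb_pos (θ ^ 2)
    have hQc := Qc_pos hu0.le
    have hQb1 := Qb_pos 1
    have hQc1 := Qc_pos zero_le_one
    have hka := ka_pos
    refine combine (a0 := ka) (b0 := kb) (c0 := kc) ?_ ?_ ?_ ka_pos kb_pos kc_pos
      (Real.exp_pos _) ?_ saddle_num
    · rw [hw, seg1_na]; positivity
    · rw [hw, seg1_nb]; positivity
    · rw [hw, seg1_nc]; positivity
    · rw [hw, seg1_na, seg1_nb, seg1_nc, kb_eq, kc_eq,
        Real.log_mul (by positivity) (by positivity), Real.log_pow _ 2,
        Real.log_div (by positivity) (by positivity), Real.log_div (by positivity) (by positivity),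
        Real.log_div (by positivity) (by positivity), Real.log_div (by positivity) (by positivity)]
      rw [Real.log_one] at hm
      push_cast
      linarith

/-! ### segment 2 -/

noncomputable def zt (t : ℝ) : ℂ :=
  ⟨(2141610 * (1 - t) + 2400000 * t) / 4000000, (572026 * (1 - t) + 800000 * t) / 4000000⟩

theorem seg2_na (t : ℝ) : na (zt t) = 4 / 10 ^ 24 * (qd 43408392097 41749415806 14842192097 t) ^ 2 := by
  unfold zt; rw [na_eq]; unfold qd; ring

theorem seg2_nb (t : ℝ) : nb (zt t) = 625 * 14842192097 / (2 * 10 ^ 12) ^ 4 * ((1 - t) ^ 2 *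
    (qd 243652592097 61505215806 14842192097 t * qd 43164192097 21993615806 14842192097 t *
      qd 271974592097 113183215806 14842192097 t)) := by
  unfold zt; rw [nb_eq]; unfold qd; ring

theorem seg2_nc (t : ℝ) : nc (zt t) = 1 / (2 * 10 ^ 12) ^ 2 *
    (qd 614213392097 170944415806 14842192097 t * qd 472603392097 (-87445584194) 14842192097 t) := by
  unfold zt; rw [nc_eq]; unfold qd; ring

theorem zt_zero_a : na (zt 0) = ka := by rw [seg2_na]; unfold ka qd; norm_num
theorem zt_zero_b : nb (zt 0) = kb := by rw [seg2_nb]; unfold kb qd; norm_num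
theorem zt_zero_c : nc (zt 0) = kc := by rw [seg2_nc]; unfold kc qd; norm_num

theorem seg2_bound {t : ℝ} (h0 : 0 ≤ t) (h1 : t ≤ 1) (w : ℂ) (hw : w = zt t) :
    na w ^ 1857 * nb w ^ 3714 ≤ nc w ^ 5570 * Real.exp (-(18242.327102118)) := by
  subst hw
  rcases eq_or_lt_of_le h1 with h | h
  · have e : nb (zt t) = 0 := by rw [seg2_nb, h]; ring
    rw [e, zero_pow (by norm_num), mul_zero]
    have : 0 ≤ nc (zt t) := normSq_nonneg _
    positivity
  · have hm := seg2_mono h0 h
    have key : ∀ t : ℝ, 0 ≤ t → t < 1 → 0 < na (zt t) ∧ 0 < nb (zt t) ∧ 0 < nc (zt t) ∧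
        1857 * Real.log (na (zt t)) + 3714 * Real.log (nb (zt t)) - 5570 * Real.log (nc (zt t)) =
        1857 * Real.log (4 / 10 ^ 24) + 3714 * Real.log (625 * 14842192097 / (2 * 10 ^ 12) ^ 4)
          - 5570 * Real.log (1 / (2 * 10 ^ 12) ^ 2) +
        (3714 * (Real.log (qd 43408392097 41749415806 14842192097 t) + Real.log (qd 243652592097 61505215806 14842192097 t)
      + Real.log (qd 43164192097 21993615806 14842192097 t) + Real.log (qd 271974592097 113183215806 14842192097 t)
      + 2 * Real.log (1 - t))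
      - 5570 * (Real.log (qd 614213392097 170944415806 14842192097 t)
        + Real.log (qd 472603392097 (-87445584194) 14842192097 t))) := by
      intro t h0 h1
      have q1 := sp1 h0 h1.le
      have q2 := sp2 h0 h1.le
      have q3 := sp3 h0 h1.le
      have q4 := sp4 h0 h1.le
      have q5 := sp5 h0 h1.le
      have q6 := sp6 h0 h1.le
      have q7 : 0 < 1 - t := by linarith
      refine ⟨?_, ?_, ?_, ?_⟩
      · rw [seg2_na]; positivity
      · rw [seg2_nb]; positivity
      · rw [seg2_nc]; positivity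
      · rw [seg2_na, seg2_nb, seg2_nc,
          Real.log_mul (x := 4 / 10 ^ 24) (by norm_num) (by positivity),
          Real.log_pow _ 2,
          Real.log_mul (x := 625 * 14842192097 / (2 * 10 ^ 12) ^ 4) (by norm_num) (by positivity),
          Real.log_mul (x := (1 - t) ^ 2) (by positivity) (by positivity), Real.log_pow _ 2,
          Real.log_mul (y := qd 271974592097 113183215806 14842192097 t) (by positivity) (by positivity),
          Real.log_mul (y := qd 43164192097 21993615806 14842192097 t) (by positivity) (by positivity),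
          Real.log_mul (x := 1 / (2 * 10 ^ 12) ^ 2) (by norm_num) (by positivity),
          Real.log_mul (y := qd 472603392097 (-87445584194) 14842192097 t) (by positivity) (by positivity)]
        push_cast
        ring
    obtain ⟨ka1, kb1, kc1, hlog⟩ := key t h0 h
    obtain ⟨ka2, kb2, kc2, hlog0⟩ := key 0 le_rfl zero_lt_one
    refine combine (a0 := na (zt 0)) (b0 := nb (zt 0)) (c0 := nc (zt 0)) ka1 kb1 kc1 ka2 kb2 kc2
      (Real.exp_pos _) ?_ ?_
    · rw [hlog, hlog0]; exact add_le_add le_rfl hm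
    · rw [zt_zero_a, zt_zero_b, zt_zero_c]; exact saddle_num

end Vale.Agent.P021.Fine
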