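import Vale.Agent.P021.Growth
import Vale.Agent.P021.Fine.Sup2

/-!
# P021: the growth bounds for `T = 1857`
-/

open Complex Polynomial

namespace Vale.Agent.P021.Fine

/-! ### the circle -/

theorem pow_aux (p m : ℝ) : (p ^ 4) ^ 1857 * (m ^ 2) ^ 3714 = ((p * m) ^ 3714) ^ 2 := by ring

theorem pow_aux2 (q E : ℝ) : (q ^ 5570 * E) ^ 2 = (q ^ 2) ^ 5570 * E ^ 2 := by ring

theorem circ_num : ((544 / 334 : ℝ) ^ 4) ^ 1857 *
    ((488657 / 111556 * (306961 / 111556) : ℝ) ^ 2) ^ 3714 ≤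
    ((46095 / 111556 : ℝ) ^ 2) ^ 5570 * Real.exp 15979.974206223 ^ 2 := by
  have h := num_big_real 81599260909088 46095 4156543539424 111556 (10 ^ 14) (10 ^ 12) 3714 5570 15979
    271828182845904 2649063610431 num_big_nat (by norm_num) (by norm_num) (by norm_num) (by norm_num)
    (Real.exp 15979.974206223) exp_big_bound
  rw [pow_aux, ← pow_aux2]
  have e : (544 / 334 : ℝ) * (488657 / 111556 * (306961 / 111556)) =
      ((81599260909088 : ℕ) : ℝ) / ((4156543539424 : ℕ) : ℝ) := by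
    push_cast; norm_num
  have e2 : (46095 / 111556 : ℝ) = ((46095 : ℕ) : ℝ) / ((111556 : ℕ) : ℝ) := by push_cast; norm_num
  rw [e, e2]
  exact pow_le_pow_left₀ (by positivity) h 2

theorem circ_bound (w : ℂ) (hw : w ∈ Metric.sphere (0 : ℂ) (105 / 334)) :
    na w ^ 1857 * nb w ^ 3714 ≤ nc w ^ 5570 * Real.exp 15979.974206223 ^ 2 ∧ 1 / 100 ≤ nc w ∧
      nc w ≤ 100 := by
  obtain ⟨x, y⟩ := w
  rw [mem_sphere_iff_norm, sub_zero] at hw
  have hs : x ^ 2 + y ^ 2 = 11025 / 111556 := by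
    have h := Complex.normSq_eq_norm_sq (⟨x, y⟩ : ℂ)
    rw [hw, Complex.normSq_apply] at h
    simp only at h
    nlinarith
  obtain ⟨e1, e2, e3⟩ := circ_forms x y _ hs
  have hx : x ^ 2 ≤ (105 / 334) ^ 2 := by nlinarith [sq_nonneg y]
  have hx1 : x ≤ 105 / 334 := by nlinarith
  have hx2 : -(105 / 334) ≤ x := by nlinarith
  obtain ⟨t, ht⟩ : ∃ t, t = (x * (334 / 105) + 1) / 2 := ⟨_, rfl⟩
  have ht0 : 0 ≤ t := by rw [ht]; linarith
  have ht1 : t ≤ 1 := by rw [ht]; linarith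
  have hxt : x = 105 / 334 * (2 * t - 1) := by rw [ht]; ring
  have f1 : na ⟨x, y⟩ = (qd 295936 (-280560) 0 t / 111556) ^ 2 := by
    rw [e1, hxt]; unfold qd; ring
  have f2 : nb ⟨x, y⟩ = (qd 238785663649 (-430971302160) 196784784000 t / 12444741136) *
      (qd 94225055521 (-191920434720) 98392392000 t / 12444741136) := by
    rw [e2, hxt]; unfold qd; ring
  have f3 : nc ⟨x, y⟩ = 11025 / 111556 * (qd 192721 (-140280) 0 t / 111556) := by
    rw [e3, hxt]; unfold qd; ring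
  have q1 := cp1 ht0 ht1
  have q2 := cp2 ht0 ht1
  have q3 := cp3 t
  have q4 := cp4 ht0 ht1
  have hm := circ_mono ht0 ht1
  refine ⟨?_, ?_, ?_⟩
  · refine combine (a0 := (544 / 334) ^ 4) (b0 := (488657 / 111556 * (306961 / 111556)) ^ 2)
      (c0 := (46095 / 111556) ^ 2) ?_ ?_ ?_ (by norm_num) (by norm_num) (by norm_num)
      (by positivity) ?_ circ_num
    · rw [f1]; positivity
    · rw [f2]; positivity
    · rw [f3]; positivity
    · have g1 : (544 / 334 : ℝ) ^ 4 = (qd 295936 (-280560) 0 0 / 111556) ^ 2 := by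
        unfold qd; norm_num
      have g2 : (488657 / 111556 * (306961 / 111556) : ℝ) ^ 2 =
          (qd 238785663649 (-430971302160) 196784784000 0 / 12444741136) *
          (qd 94225055521 (-191920434720) 98392392000 0 / 12444741136) := by
        unfold qd; norm_num
      have g3 : (46095 / 111556 : ℝ) ^ 2 =
          11025 / 111556 * (qd 192721 (-140280) 0 0 / 111556) := by
        unfold qd; norm_num
      have r1 : 0 < qd 295936 (-280560) 0 0 := by unfold qd; norm_num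
      have r2 : 0 < qd 238785663649 (-430971302160) 196784784000 0 := by unfold qd; norm_num
      have r3 : 0 < qd 94225055521 (-191920434720) 98392392000 0 := by unfold qd; norm_num
      have r4 : 0 < qd 192721 (-140280) 0 0 := by unfold qd; norm_num
      rw [f1, f2, f3, g1, g2, g3]
      rw [Real.log_pow _ 2, Real.log_pow _ 2,
        Real.log_mul (by positivity) (by positivity), Real.log_mul (by positivity) (by positivity),
        Real.log_mul (by positivity) (by positivity), Real.log_mul (by positivity) (by positivity),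
        Real.log_div q1.ne' (by norm_num), Real.log_div q2.ne' (by norm_num),
        Real.log_div q3.ne' (by norm_num), Real.log_div q4.ne' (by norm_num),
        Real.log_div r1.ne' (by norm_num), Real.log_div r2.ne' (by norm_num),
        Real.log_div r3.ne' (by norm_num), Real.log_div r4.ne' (by norm_num)]
      push_cast
      linarith
  · rw [e3]; nlinarith
  · rw [e3]; nlinarith

/-! ### the bound for `G` -/

theorem G_bound (w : ℂ) (E : ℝ) (hE : 0 < E) (h : na w ^ 1857 * nb w ^ 3714 ≤ nc w ^ 5570 * E ^ 2)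
    (h1 : 1 / 100 ≤ nc w) (h2 : nc w ≤ 100) (n k : ℕ) (hk : k ≤ 2) (c : ℤ)
    (hc : c = 5570 * n + 1 - k) :
    ‖aeval (w * (1 - w)) (NQ (1857 * n)) * (w * (1 - w)) ^ (-c)‖ ≤ 10 * E ^ n := by
  obtain ⟨y, hy⟩ : ∃ y, y = w * (1 - w) := ⟨_, rfl⟩
  have hna : na w = ‖1 - 4 * y‖ ^ 2 := by rw [hy]; unfold na; rw [Complex.normSq_eq_norm_sq]
  have hnb : nb w = ‖25 * y ^ 2 - 14 * y + 2‖ ^ 2 := by
    rw [hy]; unfold nb; rw [Complex.normSq_eq_norm_sq]
  have hnc : nc w = ‖y‖ ^ 2 := by rw [hy]; unfold nc; rw [Complex.normSq_eq_norm_sq]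
  rw [← hy, aeval_NQ]
  rw [hna, hnb, hnc] at h
  rw [hnc] at h1 h2
  obtain ⟨a, ha⟩ : ∃ a, a = ‖1 - 4 * y‖ := ⟨_, rfl⟩
  obtain ⟨b, hb⟩ : ∃ b, b = ‖25 * y ^ 2 - 14 * y + 2‖ := ⟨_, rfl⟩
  obtain ⟨r, hr⟩ : ∃ r, r = ‖y‖ := ⟨_, rfl⟩
  have ha0 : 0 ≤ a := by rw [ha]; exact norm_nonneg _
  have hb0 : 0 ≤ b := by rw [hb]; exact norm_nonneg _
  have hr0 : 0 ≤ r := by rw [hr]; exact norm_nonneg _
  rw [← ha, ← hb, ← hr] at h
  rw [← hr] at h1 h2
  have hr1 : 1 / 10 ≤ r := by nlinarith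
  have hr2 : r ≤ 10 := by nlinarith
  have hrpos : 0 < r := by linarith
  have h3 : a ^ 1857 * b ^ 3714 ≤ r ^ 5570 * E := by
    have e1 : (a ^ 2) ^ 1857 * (b ^ 2) ^ 3714 = (a ^ 1857 * b ^ 3714) ^ 2 := by ring
    have e2 : (r ^ 2) ^ 5570 * E ^ 2 = (r ^ 5570 * E) ^ 2 := by ring
    rw [e1, e2] at h
    have hl : 0 ≤ a ^ 1857 * b ^ 3714 := mul_nonneg (pow_nonneg ha0 _) (pow_nonneg hb0 _)
    have hr' : 0 ≤ r ^ 5570 * E := mul_nonneg (pow_nonneg hr0 _) hE.le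
    exact (sq_le_sq₀ hl hr').mp h
  rw [norm_mul, norm_mul, norm_pow, norm_pow, norm_zpow, ← ha, ← hb, ← hr]
  have h4 : a ^ (1857 * n) * b ^ (2 * (1857 * n)) ≤ r ^ (5570 * n) * E ^ n := by
    have e0 : 2 * (1857 * n) = 3714 * n := by omega
    rw [e0, pow_gen a b 1857 3714 n, pow_gen2 r E 5570 n]
    exact pow_le_pow_left₀ (mul_nonneg (pow_nonneg ha0 _) (pow_nonneg hb0 _)) h3 n
  have h5 : r ^ (-c) = (r ^ (5570 * n))⁻¹ * r ^ ((k : ℤ) - 1) := by
    have e : -c = -((5570 * n : ℕ) : ℤ) + ((k : ℤ) - 1) := by rw [hc]; push_cast; ring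
    rw [e, zpow_add₀ hrpos.ne', zpow_neg]
    congr 2
  have h6 : r ^ ((k : ℤ) - 1) ≤ 10 := by
    interval_cases k
    · norm_num
      rw [inv_le_comm₀ hrpos (by norm_num)]
      norm_num at hr1 ⊢
      exact hr1
    · norm_num
    · norm_num
      exact hr2
  rw [h5]
  have h7 : 0 < r ^ (5570 * n) := by positivity
  calc a ^ (1857 * n) * b ^ (2 * (1857 * n)) * ((r ^ (5570 * n))⁻¹ * r ^ ((k : ℤ) - 1))
      ≤ (r ^ (5570 * n) * E ^ n) * ((r ^ (5570 * n))⁻¹ * r ^ ((k : ℤ) - 1)) :=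
        mul_le_mul_of_nonneg_right h4 (by positivity)
    _ = r ^ ((k : ℤ) - 1) * E ^ n := by field_simp
    _ ≤ 10 * E ^ n := mul_le_mul_of_nonneg_right h6 (by positivity)

/-! ### the small linear forms -/

noncomputable def ws : ℂ := ⟨2141610 / 4000000, 286013 / 2000000⟩

theorem mem_seg1 {w : ℂ} (hw : w ∈ segment ℝ (1 / 2 : ℂ) ws) :
    ∃ θ : ℝ, 0 ≤ θ ∧ θ ≤ 1 ∧ w = ⟨1 / 2 + θ * (70805 / 2000000), θ * (286013 / 2000000)⟩ := by
  rw [segment_eq_image, half_eq] at hw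
  obtain ⟨θ, ⟨h0, h1⟩, rfl⟩ := hw
  refine ⟨θ, h0, h1, ?_⟩
  apply Complex.ext
  · simp [ws]; ring
  · simp [ws]

theorem mem_seg2 {w : ℂ} (hw : w ∈ segment ℝ ws w0) :
    ∃ t : ℝ, 0 ≤ t ∧ t ≤ 1 ∧ w = zt t := by
  rw [segment_eq_image, w0_eq] at hw
  obtain ⟨θ, ⟨h0, h1⟩, rfl⟩ := hw
  refine ⟨θ, h0, h1, ?_⟩
  apply Complex.ext
  · simp [ws, zt]; ring
  · simp [ws, zt]; ring

theorem exp_sq_small : Real.exp (-(18242.327102118)) = Real.exp (-(9121.163551059)) ^ 2 := by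
  rw [← Real.exp_nat_mul]; congr 1; norm_num

theorem seg1_all {w : ℂ} (hw : w ∈ segment ℝ (1 / 2 : ℂ) ws) :
    Dom w ∧ na w ^ 1857 * nb w ^ 3714 ≤ nc w ^ 5570 * Real.exp (-(9121.163551059)) ^ 2 ∧
      1 / 100 ≤ nc w ∧ nc w ≤ 100 := by
  obtain ⟨θ, h0, h1, hw⟩ := mem_seg1 hw
  refine ⟨?_, ?_, ?_, ?_⟩
  · apply dom_of_re
    · rw [hw]; simp only; positivity
    · rw [hw]; simp only; linarith
  · rw [← exp_sq_small]; exact seg1_bound h0 h1 w hw
  · rw [hw, seg1_nc]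
    unfold Qc qd
    have : 0 ≤ θ ^ 2 := sq_nonneg _
    rw [le_div_iff₀ (by norm_num)]
    nlinarith [sq_nonneg (θ ^ 2)]
  · rw [hw, seg1_nc]
    unfold Qc qd
    have h2 : θ ^ 2 ≤ 1 := pow_le_one₀ h0 h1
    have h3 : (θ ^ 2) ^ 2 ≤ 1 := pow_le_one₀ (sq_nonneg _) h2
    rw [div_le_iff₀ (by norm_num)]
    nlinarith

theorem seg2_all {w : ℂ} (hw : w ∈ segment ℝ ws w0) :
    Dom w ∧ na w ^ 1857 * nb w ^ 3714 ≤ nc w ^ 5570 * Real.exp (-(9121.163551059)) ^ 2 ∧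
      1 / 100 ≤ nc w ∧ nc w ≤ 100 := by
  obtain ⟨t, h0, h1, hw⟩ := mem_seg2 hw
  have b5 : 614213392097 ≤ qd 614213392097 170944415806 14842192097 t := by
    unfold qd; nlinarith [sq_nonneg t]
  have b5' : qd 614213392097 170944415806 14842192097 t ≤ 800000000000 := by unfold qd; nlinarith
  have b6 : 385000000000 ≤ qd 472603392097 (-87445584194) 14842192097 t := by
    unfold qd; nlinarith [sq_nonneg t]
  have b6' : qd 472603392097 (-87445584194) 14842192097 t ≤ 490000000000 := by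
    unfold qd; nlinarith
  refine ⟨?_, ?_, ?_, ?_⟩
  · apply dom_of_re
    · rw [hw]; unfold zt; simp only; linarith
    · rw [hw]; unfold zt; simp only; linarith
  · rw [← exp_sq_small]; exact seg2_bound h0 h1 w hw
  · rw [hw, seg2_nc]
    have := mul_le_mul b5 b6 (by norm_num) (by linarith)
    linarith
  · rw [hw, seg2_nc]
    have := mul_le_mul b5' b6' (by linarith) (by norm_num)
    linarith

theorem growth_small_of (hr : RhoRec) : ∃ K : ℝ, 0 < K ∧ ∀ n k : ℕ, k ≤ 2 → ∀ c : ℤ,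
    c = 5570 * n + 1 - k →
    |(Lf c (NQ (1857 * n)) : ℝ) * (Real.pi / 4) + (Rf c (NQ (1857 * n)) : ℝ)| ≤
      K * Real.exp (-(4.911773587 * 1857 * n)) := by
  refine ⟨10 * (‖w0 - ws‖ + ‖ws - 1 / 2‖ + 1), by positivity, fun n k hk c hc => ?_⟩
  obtain ⟨Ψ, hΨ, him⟩ := prim_poly hr lamRec c (NQ (1857 * n))
  rw [← him]
  have h1 := seg_len (a := 1 / 2) (b := ws) (Ψ := Ψ) (B := 10 * Real.exp (-(9121.163551059)) ^ n)
    (fun w hw => hΨ w (seg1_all hw).1) (fun w hw => by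
      obtain ⟨_, g1, g2, g3⟩ := seg1_all hw
      exact G_bound w _ (Real.exp_pos _) g1 g2 g3 n k hk c hc)
  have h2 := seg_len (a := ws) (b := w0) (Ψ := Ψ) (B := 10 * Real.exp (-(9121.163551059)) ^ n)
    (fun w hw => hΨ w (seg2_all hw).1) (fun w hw => by
      obtain ⟨_, g1, g2, g3⟩ := seg2_all hw
      exact G_bound w _ (Real.exp_pos _) g1 g2 g3 n k hk c hc)
  have h3 : ‖Ψ w0 - Ψ (1 / 2)‖ ≤ ‖Ψ w0 - Ψ ws‖ + ‖Ψ ws - Ψ (1 / 2)‖ := by
    have : Ψ w0 - Ψ (1 / 2) = (Ψ w0 - Ψ ws) + (Ψ ws - Ψ (1 / 2)) := by ring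
    rw [this]; exact norm_add_le _ _
  have e : Real.exp (-(4.911773587 * 1857 * n)) = Real.exp (-(9121.163551059)) ^ n := by
    rw [← Real.exp_nat_mul]; congr 1; ring
  rw [e]
  have hE : 0 ≤ Real.exp (-(9121.163551059)) ^ n := pow_nonneg (Real.exp_pos _).le n
  have h4 := Complex.abs_im_le_norm (Ψ w0 - Ψ (1 / 2))
  nlinarith

theorem growth_big : ∃ K : ℝ, 0 < K ∧ ∀ n k : ℕ, k ≤ 2 → ∀ c : ℤ, c = 5570 * n + 1 - k →
    |(Lf c (NQ (1857 * n)) : ℝ)| ≤ K * Real.exp (8.605263439 * 1857 * n) := by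
  refine ⟨10, by norm_num, fun n k hk c hc => ?_⟩
  have h := Lf_bound (r := 105 / 334) (by norm_num) (by norm_num) c (NQ (1857 * n))
    (10 * Real.exp 15979.974206223 ^ n) (fun w hw => by
      obtain ⟨h1, h2, h3⟩ := circ_bound w hw
      exact G_bound w _ (Real.exp_pos _) h1 h2 h3 n k hk c hc)
  refine h.trans ?_
  have e : Real.exp (8.605263439 * 1857 * n) = Real.exp 15979.974206223 ^ n := by
    rw [← Real.exp_nat_mul]; congr 1; ring
  rw [e]
  have : 0 < Real.exp 15979.974206223 ^ n := by positivity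
  nlinarith

end Vale.Agent.P021.Fine
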