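import Vale.Agent.P021.Assembly
import Vale.Agent.P021.Fine.Cert
import Vale.Agent.P021.Fine.Growth

open Polynomial Filter Topology

namespace Vale.Agent.P021.Fine

/-- the common denominator -/
noncomputable def lamn (n : ℕ) : ℚ :=
  ((lcmUpto (7430 * n + 3) * 5 ^ (2 * n + 3) : ℕ) : ℚ) / ((2 ^ ((1858 * n - 1) / 2) * sp 1857 n : ℕ) : ℚ)

theorem lamn_pos (n : ℕ) : 0 < lamn n := by
  unfold lamn
  have h1 := lcmUpto_pos (7430 * n + 3)
  have h2 := sp_pos 1857 n
  positivity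

theorem integrality (n k : ℕ) (hn : 10 ≤ n) (hk : k ≤ 2) (c : ℤ) (hc : c = 5570 * n + 1 - k) :
    ∃ P Q : ℤ, lamn n * Rf c (NQ (1857 * n)) = P ∧ lamn n * Lf c (NQ (1857 * n)) = Q := by
  have hc' : c = 3 * (1857 * n : ℕ) - n + 1 - k := by rw [hc]; push_cast; ring
  have hM : 4 * (1857 * n) + 2 * n + 3 = 7430 * n + 3 := by ring
  have he : (1857 * n + n - 1) / 2 = (1858 * n - 1) / 2 := by
    rw [show 1857 * n + n = 1858 * n by ring]
  obtain ⟨z, hz⟩ := Rf_den (1857 * n) n k hk (by omega) c hc'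
  obtain ⟨z', hz'⟩ := Lf_den (1857 * n) n k hk (by omega) c hc'
  rw [hM, he] at hz
  rw [he] at hz'
  set L := lcmUpto (7430 * n + 3) with hL
  set e := (1858 * n - 1) / 2 with hee
  set R := Rf c (NQ (1857 * n)) with hR
  -- saved primes divide z
  have hsaved : ∀ p ∈ savedFinset 1857 n, p ∣ z.natAbs := by
    intro p hp
    have hp1 := (savedFinset_mem.mp hp).2
    have hpp := hp1.1
    have hpL : p ∣ L := saved_dvd_lcmUpto hp (by omega)
    have hden : ¬ p ∣ R.den := Rf_saved 1857 n k p (by norm_num) hn hk hp1 c hc'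
    have hint : (L : ℤ) * 5 ^ (2 * n + 3) * R.num = 2 ^ e * z * R.den := by
      have h1 : (R.num : ℚ) = R * R.den := (Rat.mul_den_eq_num R).symm
      have h2 : ((L : ℚ) * 5 ^ (2 * n + 3) * R.num) = 2 ^ e * z * R.den := by
        rw [h1, ← mul_assoc, hz]
      exact_mod_cast h2
    have h3 : (p : ℤ) ∣ 2 ^ e * z * R.den := by
      rw [← hint]
      exact Dvd.dvd.mul_right (Dvd.dvd.mul_right (Int.natCast_dvd_natCast.mpr hpL) _) _
    have hpI : Prime (p : ℤ) := Nat.prime_iff_prime_int.mp hpp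
    rcases hpI.dvd_or_dvd h3 with h4 | h4
    · rcases hpI.dvd_or_dvd h4 with h5 | h5
      · exfalso
        have h6 := hpI.dvd_of_dvd_pow h5
        have h7 : p ∣ 2 := by exact_mod_cast h6
        have := Nat.le_of_dvd (by norm_num) h7
        have := hp1.2.1
        omega
      · exact Int.natCast_dvd.mp h5
    · exact absurd (by exact_mod_cast h4) hden
  have hS1 : sp 1857 n ∣ z.natAbs := sp_dvd _ _ _ hsaved
  have hS2 : sp 1857 n ∣ L := sp_dvd _ _ _ fun p hp => saved_dvd_lcmUpto hp (by omega)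
  have hSz : (sp 1857 n : ℤ) ∣ z := Int.natCast_dvd.mpr hS1
  obtain ⟨z1, hz1⟩ := hSz
  obtain ⟨L1, hL1⟩ := hS2
  have hS0 : (sp 1857 n : ℚ) ≠ 0 := by exact_mod_cast (sp_pos 1857 n).ne'
  refine ⟨z1, L1 * 5 ^ (2 * n + 3) * z', ?_, ?_⟩
  · have h1 : ((L * 5 ^ (2 * n + 3) : ℕ) : ℚ) * R = 2 ^ e * (sp 1857 n * z1) := by
      push_cast
      rw [hz, hz1]
      push_cast
      ring
    have h2 : lamn n * R = (((L * 5 ^ (2 * n + 3) : ℕ) : ℚ) * R) / ((2 ^ e * sp 1857 n : ℕ) : ℚ) := by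
      unfold lamn
      rw [div_mul_eq_mul_div]
    rw [h2, h1]
    push_cast
    field_simp
  · unfold lamn
    rw [hz', ← hL, ← hee, hL1]
    push_cast
    field_simp

theorem log_lamn (n : ℕ) : Real.log (lamn n : ℝ) =
    Chebyshev.psi (7430 * n + 3 : ℕ) + (2 * n + 3) * Real.log 5 -
      ((1858 * n - 1) / 2 : ℕ) * Real.log 2 - ∑ p ∈ savedFinset 1857 n, Real.log p := by
  have hL : (0 : ℝ) < (lcmUpto (7430 * n + 3) : ℕ) := by exact_mod_cast lcmUpto_pos _
  have hS : (0 : ℝ) < (sp 1857 n : ℕ) := by exact_mod_cast sp_pos _ _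
  have hpsi : Chebyshev.psi (7430 * n + 3 : ℕ) = Real.log (lcmUpto (7430 * n + 3) : ℕ) :=
    Chebyshev.psi_eq_log_lcmUpto _
  have hsp : ∑ p ∈ savedFinset 1857 n, Real.log p = Real.log (sp 1857 n : ℕ) := by
    unfold sp
    push_cast
    rw [Real.log_prod]
    intro p hp
    exact_mod_cast (savedFinset_mem.mp hp).2.1.pos.ne'
  rw [hpsi, hsp]
  unfold lamn
  push_cast
  rw [Real.log_div (by positivity) (by positivity), Real.log_mul (by positivity) (by positivity),
    Real.log_mul (by positivity) (by positivity), Real.log_pow, Real.log_pow]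
  push_cast
  ring

theorem psi_tendsto : Tendsto (fun n : ℕ => Chebyshev.psi (7430 * n + 3 : ℕ) / n) atTop (𝓝 7430) := by
  have h1 : Tendsto (fun n : ℕ => ((7430 * n + 3 : ℕ) : ℝ)) atTop atTop := by
    apply tendsto_natCast_atTop_atTop.comp
    apply tendsto_atTop_mono (f := id) _ tendsto_id
    intro n
    simp only [id]
    omega
  have h2 := pnt_psi.comp h1
  have h3 : Tendsto (fun n : ℕ => ((7430 * n + 3 : ℕ) : ℝ) / n) atTop (𝓝 7430) := by
    have h4 : Tendsto (fun n : ℕ => (7430 : ℝ) + 3 / n) atTop (𝓝 (7430 + 0)) :=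
      tendsto_const_nhds.add (tendsto_const_div_atTop_nhds_zero_nat 3)
    rw [add_zero] at h4
    refine h4.congr' ?_
    filter_upwards [eventually_gt_atTop 0] with n hn
    have : (0 : ℝ) < n := by exact_mod_cast hn
    push_cast
    field_simp
  have h5 := h2.mul h3
  rw [one_mul] at h5
  refine h5.congr' ?_
  filter_upwards [eventually_gt_atTop 0] with n hn
  have : (0 : ℝ) < n := by exact_mod_cast hn
  have h6 : (0 : ℝ) < ((7430 * n + 3 : ℕ) : ℝ) := by positivity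
  simp only [Function.comp]
  field_simp

theorem log_lamn_le (δ : ℝ) (hδ : 0 < δ) : ∀ᶠ n : ℕ in atTop, Real.log (lamn n : ℝ) ≤
    (7430 + 2 * Real.log 5 - 929 * Real.log 2 - 1857 * 0.64758523058 + δ) * n := by
  have e1 : ∀ᶠ n : ℕ in atTop, Chebyshev.psi (7430 * n + 3 : ℕ) / n < 7430 + δ / 4 :=
    psi_tendsto.eventually_lt_const (by linarith)
  have e2 : ∀ᶠ n : ℕ in atTop, (3 * Real.log 5 : ℝ) ≤ δ / 4 * n :=
    (Tendsto.const_mul_atTop (by positivity) tendsto_natCast_atTop_atTop).eventually_ge_atTop _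
  have e3 : ∀ᶠ n : ℕ in atTop, (Real.log 2 : ℝ) ≤ δ / 4 * n :=
    (Tendsto.const_mul_atTop (by positivity) tendsto_natCast_atTop_atTop).eventually_ge_atTop _
  obtain ⟨A, hgap⟩ := gap_sum (δ / (8 * 1857)) (by positivity)
  have e4 := saved_sum 1857 A (by norm_num) (δ / (8 * 1857)) (by positivity)
  filter_upwards [e1, e2, e3, e4, eventually_gt_atTop 0] with n h1 h2 h3 h4 hn
  have hn' : (0 : ℝ) < n := by exact_mod_cast hn
  rw [log_lamn]
  have h1' := (div_lt_iff₀ hn').mp h1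
  have h4' : (0.64758523058 - δ / (8 * 1857) - δ / (8 * 1857)) * (1857 * n : ℝ) ≤
      ∑ p ∈ savedFinset 1857 n, Real.log p := by
    refine le_trans ?_ h4
    push_cast
    gcongr
  have h5 : (929 * n - 1 : ℝ) ≤ ((1858 * n - 1) / 2 : ℕ) := by
    have h6 : 1858 * n ≤ 2 * ((1858 * n - 1) / 2) + 2 := by omega
    have h7 : (1858 * n : ℝ) ≤ 2 * ((1858 * n - 1) / 2 : ℕ) + 2 := by exact_mod_cast h6
    linarith
  have h2l : 0 < Real.log 2 := Real.log_pos (by norm_num)
  have h6 : (929 * n - 1 : ℝ) * Real.log 2 ≤ ((1858 * n - 1) / 2 : ℕ) * Real.log 2 := by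
    gcongr
  linarith

theorem H_pi (τ σ : ℝ)
    (hτ : 8.605263439 * 1857 + (7430 + 2 * Real.log 5 - 929 * Real.log 2 - 1857 * 0.64758523058) < τ)
    (hσ : σ < 4.911773587 * 1857 - (7430 + 2 * Real.log 5 - 929 * Real.log 2 - 1857 * 0.64758523058)) :
    ∀ᶠ n : ℕ in atTop, ∀ p q : ℤ, 0 < q → ∃ P Q : ℤ,
      |(Q : ℝ)| ≤ Real.exp (τ * n) ∧ |(Q : ℝ) * Real.pi - P| ≤ Real.exp (-(σ * n)) ∧ Q * p ≠ P * q := by
  set κ := 7430 + 2 * Real.log 5 - 929 * Real.log 2 - 1857 * 0.64758523058 with hκ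
  obtain ⟨K1, hK1, hbig⟩ := growth_big
  obtain ⟨K2, hK2, hsmall⟩ := growth_small_of rho_rec
  obtain ⟨δ, hδ, hδ1, hδ2⟩ : ∃ δ : ℝ, 0 < δ ∧ 8.605263439 * 1857 + κ + 2 * δ ≤ τ ∧
      σ + 2 * δ ≤ 4.911773587 * 1857 - κ := by
    refine ⟨min ((τ - (8.605263439 * 1857 + κ)) / 2) ((4.911773587 * 1857 - κ - σ) / 2), ?_, ?_, ?_⟩
    · exact lt_min (by linarith) (by linarith)
    · have := min_le_left ((τ - (8.605263439 * 1857 + κ)) / 2) ((4.911773587 * 1857 - κ - σ) / 2)
      linarith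
    · have := min_le_right ((τ - (8.605263439 * 1857 + κ)) / 2) ((4.911773587 * 1857 - κ - σ) / 2)
      linarith
  have e1 : ∀ᶠ n : ℕ in atTop, Real.log K1 ≤ δ * n :=
    (Tendsto.const_mul_atTop hδ tendsto_natCast_atTop_atTop).eventually_ge_atTop _
  have e2 : ∀ᶠ n : ℕ in atTop, Real.log (4 * K2) ≤ δ * n :=
    (Tendsto.const_mul_atTop hδ tendsto_natCast_atTop_atTop).eventually_ge_atTop _
  filter_upwards [log_lamn_le δ hδ, e1, e2, eventually_ge_atTop 10] with n hn h1 h2 hn10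
  intro p q hq
  have hlampos : (0 : ℝ) < (lamn n : ℝ) := by exact_mod_cast lamn_pos n
  obtain ⟨k, hk, hne⟩ : ∃ k : ℕ, k ≤ 2 ∧ Lf ((5570 * n + 1 : ℕ) - k : ℤ) (NQ (1857 * n)) * ((p : ℚ) / (4 * q)) +
      Rf ((5570 * n + 1 : ℕ) - k : ℤ) (NQ (1857 * n)) ≠ 0 := by
    by_contra hcon
    push Not at hcon
    exact nonvanish (1857 * n) (5570 * n + 1) (by omega) ((p : ℚ) / (4 * q)) hcon
  set c : ℤ := (5570 * n + 1 : ℕ) - k with hcdef
  have hc : c = 5570 * n + 1 - k := by rw [hcdef]; push_cast; ring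
  obtain ⟨P, Q, hP, hQ⟩ := integrality n k hn10 hk c hc
  have hb := hbig n k hk c hc
  have hs := hsmall n k hk c hc
  set R := Rf c (NQ (1857 * n)) with hR
  set Λ := Lf c (NQ (1857 * n)) with hΛ
  have hPr : (lamn n : ℝ) * (R : ℝ) = P := by exact_mod_cast hP
  have hQr : (lamn n : ℝ) * (Λ : ℝ) = Q := by exact_mod_cast hQ
  have hlam : (lamn n : ℝ) ≤ Real.exp ((κ + δ) * n) := by
    rw [← Real.log_le_iff_le_exp hlampos]
    exact hn
  refine ⟨-4 * P, Q, ?_, ?_, ?_⟩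
  · rw [← hQr, abs_mul, abs_of_pos hlampos]
    calc (lamn n : ℝ) * |(Λ : ℝ)| ≤ Real.exp ((κ + δ) * n) * (K1 * Real.exp (8.605263439 * 1857 * n)) := by
          gcongr
      _ ≤ Real.exp ((κ + δ) * n) * (Real.exp (δ * n) * Real.exp (8.605263439 * 1857 * n)) := by
          gcongr
          exact (Real.log_le_iff_le_exp hK1).mp h1
      _ = Real.exp ((8.605263439 * 1857 + κ + 2 * δ) * n) := by
          rw [← Real.exp_add, ← Real.exp_add]
          congr 1
          ring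
      _ ≤ Real.exp (τ * n) := by gcongr
  · have hform : (Q : ℝ) * Real.pi - ((-4 * P : ℤ) : ℝ) =
        (lamn n : ℝ) * 4 * ((Λ : ℝ) * (Real.pi / 4) + (R : ℝ)) := by
      push_cast
      rw [← hQr, ← hPr]
      ring
    rw [hform, abs_mul, abs_of_pos (by positivity)]
    calc (lamn n : ℝ) * 4 * |(Λ : ℝ) * (Real.pi / 4) + (R : ℝ)|
        ≤ Real.exp ((κ + δ) * n) * 4 * (K2 * Real.exp (-(4.911773587 * 1857 * n))) := by
          gcongr
      _ = Real.exp ((κ + δ) * n) * ((4 * K2) * Real.exp (-(4.911773587 * 1857 * n))) := by ring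
      _ ≤ Real.exp ((κ + δ) * n) * (Real.exp (δ * n) * Real.exp (-(4.911773587 * 1857 * n))) := by
          gcongr
          exact (Real.log_le_iff_le_exp (by positivity)).mp h2
      _ = Real.exp (-((4.911773587 * 1857 - κ - 2 * δ) * n)) := by
          rw [← Real.exp_add, ← Real.exp_add]
          congr 1
          ring
      _ ≤ Real.exp (-(σ * n)) := by
          gcongr
          linarith
  · intro hcon
    apply hne
    have hq' : (q : ℚ) ≠ 0 := by exact_mod_cast hq.ne'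
    have hlq : lamn n ≠ 0 := (lamn_pos n).ne'
    have h3 : (Q : ℚ) * p = (-4 * P) * q := by exact_mod_cast hcon
    rw [← hP, ← hQ] at h3
    have h4 : lamn n * (Λ * p + 4 * R * q) = 0 := by linear_combination h3
    have h5 : Λ * p + 4 * R * q = 0 := by
      rcases mul_eq_zero.mp h4 with h | h
      · exact absurd h hlq
      · exact h
    field_simp
    linear_combination h5

theorem pi_finite (ν : ℝ) (hν : 7.10186284 < ν) :
    {pq : ℤ × ℤ | 2 ≤ pq.2 ∧ |Real.pi - pq.1 / pq.2| < (pq.2 : ℝ) ^ (-ν)}.Finite := by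
  have l2 := Real.log_two_gt_d9
  have l5 := Real.log_five_lt_d9
  refine diophantine_lemma Real.pi 21566.6935785 3534.4441788 (by norm_num) (by norm_num)
    (H_pi _ _ ?_ ?_) ν (lt_of_le_of_lt ?_ hν)
  · norm_num
    linarith
  · norm_num
    linarith
  · norm_num

end Vale.Agent.P021.Fine
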