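import Vale.Agent.P021.SavedSum

/-!
# P021: the infinite sum of the gaps (`T = 1857`)
-/

open Filter Topology

namespace Vale.Agent.P021.Fine

theorem gap_ge (T a : ℕ) (d : ℝ) (hT : 10 ≤ T) (ha : 1 ≤ a) (hd0 : 0 ≤ d) (hd1 : d ≤ 1)
    (h1 : (3 * T - 1) * (a + d) ≤ 2 * T * (gam T a : ℝ))
    (h2 : (4 * T + 2) * (a + d) ≤ 2 * T * (kap T a : ℝ)) :
    2 * d / (a + 1 / 2) ^ 2 ≤ gap T a := by
  have ha' : (0 : ℝ) < a := by exact_mod_cast ha
  have hT' : (10 : ℝ) ≤ T := by exact_mod_cast hT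
  have hg : (0 : ℝ) < gam T a := by exact_mod_cast gam_pos T a (by omega) ha
  have hk : (0 : ℝ) < kap T a := by exact_mod_cast (kap_pos T a hT ha).1
  have e1 : ((3 * T - 1 : ℕ) : ℝ) = 3 * T - 1 := by
    rw [Nat.cast_sub (by omega)]; push_cast; ring
  have hlo : lo T a ≤ 2 / (a + d) := by
    unfold lo
    apply max_le
    · rw [e1]
      push_cast
      rw [div_le_div_iff₀ (by positivity) (by positivity)]
      linarith
    · push_cast
      rw [div_le_div_iff₀ (by positivity) (by positivity)]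
      linarith
  have h3 : 2 * d / (a + 1 / 2) ^ 2 ≤ 2 / a - 2 / (a + d) := by
    rw [div_sub_div _ _ ha'.ne' (by positivity), div_le_div_iff₀ (by positivity) (by positivity)]
    nlinarith [mul_nonneg hd0 (sub_nonneg.mpr hd1), mul_nonneg hd0 ha'.le,
      mul_nonneg (mul_nonneg hd0 ha'.le) (sub_nonneg.mpr hd1)]
  unfold gap
  linarith

/-- the comparison function -/
noncomputable def BB (h z : ℝ) : ℝ := 1 / (h * z) - h / (12 * z ^ 3)

theorem BB_step (h z : ℝ) (hh : 0 < h) (hz : 0 < z) :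
    BB h z - BB h (z + h) ≤ 1 / (z + h / 2) ^ 2 := by
  unfold BB
  have hz2 : 0 < z + h := by linarith
  have hz3 : 0 < z + h / 2 := by linarith
  have hq : 0 < z * (z + h) := mul_pos hz hz2
  have e : 1 / (z + h / 2) ^ 2 - (1 / (h * z) - h / (12 * z ^ 3) -
      (1 / (h * (z + h)) - h / (12 * (z + h) ^ 3))) =
      h ^ 4 * (7 * (z * (z + h)) + h ^ 2) / (48 * (z * (z + h)) ^ 3 * (z + h / 2) ^ 2) := by
    field_simp
    ring
  have h4 : 0 ≤ h ^ 4 * (7 * (z * (z + h)) + h ^ 2) / (48 * (z * (z + h)) ^ 3 * (z + h / 2) ^ 2) := by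
    positivity
  linarith

theorem BB_sum (h z : ℝ) (hh : 0 < h) (hz : 0 < z) (m : ℕ) :
    BB h z - BB h (z + h * m) ≤ ∑ j ∈ Finset.range m, 1 / (z + h * j + h / 2) ^ 2 := by
  induction m with
  | zero => simp
  | succ m ih =>
    rw [Finset.sum_range_succ]
    have h1 := BB_step h (z + h * m) hh (by positivity)
    have e : z + h * ((m + 1 : ℕ) : ℝ) = z + h * m + h := by push_cast; ring
    rw [e]
    linarith

theorem BB_le (h z : ℝ) (hh : 0 < h) (hz : 0 < z) : BB h z ≤ 1 / (h * z) := by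
  unfold BB
  have : 0 ≤ h / (12 * z ^ 3) := by positivity
  linarith

theorem gam_add (T a j : ℕ) (hT : 1 ≤ T) : gam T (a + 2 * T * j) = gam T a + (3 * T - 1) * j := by
  unfold gam
  have e : (3 * T - 1) * (a + 2 * T * j) + 2 * T - 1 =
      ((3 * T - 1) * a + 2 * T - 1) + (3 * T - 1) * j * (2 * T) := by
    have : (3 * T - 1) * (a + 2 * T * j) = (3 * T - 1) * a + (3 * T - 1) * j * (2 * T) := by ring
    omega
  rw [e, Nat.add_mul_div_right _ _ (by omega)]

theorem kap_add (T a j : ℕ) (hT : 10 ≤ T) (h0 : 2 * gam T a ≤ 5 * a + 1 + a % 2) :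
    kap T (a + 2 * T * j) = kap T a + (4 * T + 2) * j := by
  unfold kap
  rw [gam_add T a j (by omega)]
  have e1 : (a + 2 * T * j) % 2 = a % 2 := by
    rw [mul_assoc, Nat.add_mul_mod_self_left]
  rw [e1]
  obtain ⟨t, ht⟩ : ∃ t, 3 * T = t + 1 := ⟨3 * T - 1, by omega⟩
  have e2 : 3 * T - 1 = t := by omega
  rw [e2]
  have e3 : 5 * (a + 2 * T * j) = 5 * a + (4 * T + 2) * j + 2 * (t * j) := by
    have : 2 * (t * j) + 2 * j = 6 * T * j := by
      calc 2 * (t * j) + 2 * j = 2 * ((t + 1) * j) := by ring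
        _ = 6 * T * j := by rw [← ht]; ring
    have e4 : 5 * (a + 2 * T * j) = 5 * a + 10 * T * j := by ring
    have e5 : (4 * T + 2) * j = 4 * T * j + 2 * j := by ring
    have e6 : 10 * T * j = 4 * T * j + 6 * T * j := by ring
    omega
  have e7 : 2 * (gam T a + t * j) = 2 * gam T a + 2 * (t * j) := by ring
  omega

/-- the sum over one residue class -/
theorem class_sum (T r J m : ℕ) (d : ℝ) (hT : 10 ≤ T) (hr : r < 2 * T) (hJ : 1 ≤ J)
    (hd0 : 0 ≤ d) (hd1 : d ≤ 1)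
    (hk : 2 * gam T r ≤ 5 * r + 1 + r % 2)
    (h1 : (3 * T - 1) * (r + d) ≤ 2 * T * (gam T r : ℝ))
    (h2 : (4 * T + 2) * (r + d) ≤ 2 * T * (kap T r : ℝ)) :
    2 * d * (BB (2 * T) (r + 2 * T * J + 1 / 2 - T) - BB (2 * T) (r + 2 * T * (J + m) + 1 / 2 - T)) ≤
      ∑ j ∈ Finset.range m, max 0 (gap T (r + 2 * T * (J + j))) := by
  have hT' : (10 : ℝ) ≤ T := by exact_mod_cast hT
  have hJ' : (1 : ℝ) ≤ J := by exact_mod_cast hJ
  have hr0 : (0 : ℝ) ≤ r := Nat.cast_nonneg r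
  have hz : (0 : ℝ) < r + 2 * T * J + 1 / 2 - T := by nlinarith
  have h := BB_sum (2 * T) (r + 2 * T * J + 1 / 2 - T) (by linarith) hz m
  have e : (r : ℝ) + 2 * T * J + 1 / 2 - T + 2 * T * m = r + 2 * T * (J + m) + 1 / 2 - T := by ring
  rw [e] at h
  calc _ ≤ 2 * d * ∑ j ∈ Finset.range m, 1 / (r + 2 * T * J + 1 / 2 - T + 2 * T * j + 2 * T / 2 : ℝ) ^ 2 :=
        mul_le_mul_of_nonneg_left h (by positivity)
    _ = ∑ j ∈ Finset.range m, 2 * d * (1 / (r + 2 * T * J + 1 / 2 - T + 2 * T * j + 2 * T / 2 : ℝ) ^ 2) :=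
        Finset.mul_sum _ _ _
    _ ≤ _ := by
        apply Finset.sum_le_sum
        intro j _
        refine le_trans ?_ (le_max_right _ _)
        have ha : 1 ≤ r + 2 * T * (J + j) := by nlinarith
        have g := gap_ge T (r + 2 * T * (J + j)) d hT ha hd0 hd1 ?_ ?_
        · refine le_trans (le_of_eq ?_) g
          push_cast
          rw [mul_one_div]
          congr 2
          ring
        · rw [gam_add T r (J + j) (by omega)]
          have e1 : ((3 * T - 1 : ℕ) : ℝ) = 3 * T - 1 := by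
            rw [Nat.cast_sub (by omega)]; push_cast; ring
          push_cast
          rw [e1]
          nlinarith
        · rw [kap_add T r (J + j) hT hk]
          push_cast
          nlinarith

end Vale.Agent.P021.Fine
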